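import Crest.Agent.Snaky.Check
import Crest.Agent.Snaky.R11_0

set_option autoImplicit false
set_option maxRecDepth 100000

namespace Crest.Agent.Snaky

theorem r11_n3871 : Inv 8 8 20 87112285931760246646623899502532662132736 13375067680178102097058955172844999437572779896739137560380975172929548538803309042210031032955152731846538481952474608346134503657146345328446503932395520 :=
  inv_mv (d := 19) 87112285931760246646623899502532662132736 135 _ (inv_or r11_e5
    (inv_or r11_e4
    (inv_or r11_e3
    (inv_or r11_e2
    (inv_or r11_e1
    r11_e0)))))
    (by decide +kernel)

theorem r11 : Inv 8 8 20 (2 ^ (16 * 8 + 8)) 13375067680178102097058955172844999437572779896739137560380975172929548538803309042210031032955152731846538481952474608346134503657146345328446503932395520 :=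
  inv_mono r11_n3871 (by decide) (by decide +kernel)

end Crest.Agent.Snaky
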