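import Crest.Agent.Snaky.Check
import Crest.Agent.Snaky.R20_0

set_option autoImplicit false
set_option maxRecDepth 100000

namespace Crest.Agent.Snaky

theorem r20_n1879 : Inv 8 7 19 87113615159756031562496803309592942477312 12609049524055980021570093214413078951162207529749015393297862726923393242409487489255769782090073682888966115923781780420637199257051204906788796026060800 :=
  inv_mv (d := 18) 87113615159756031562496803309592942477312 119 _ (inv_or r20_e1
    r20_e0)
    (by decide +kernel)

theorem r20_n2828 : Inv 8 7 20 1329227995784915872903807060280344576 12609049524055980021570093214413078618289133854329993624598786047449780011046696923400105660675704925999736412598124619161795353333638075659036652763873280 :=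
  inv_mv (d := 19) 1329227995784915872903807060280344576 136 _ (inv_or r20_e3
    (inv_or r20_e2
    (inv_mono (d' := 19) (m' := 87113615159756031562496803309592942477312) r20_n1879 (by decide) (by decide +kernel))))
    (by decide +kernel)

theorem r20 : Inv 8 7 20 (2 ^ (16 * 7 + 8)) 12609049524055980021570093214413078618289133854329993624598786047449780011046696923400105660675704925999736412598124619161795353333638075659036652763873280 :=
  inv_mono r20_n2828 (by decide) (by decide +kernel)

end Crest.Agent.Snaky
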