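import Crest.Agent.Snaky.Check
import Crest.Agent.Snaky.R21_0

set_option autoImplicit false
set_option maxRecDepth 100000

namespace Crest.Agent.Snaky

theorem r21_n1986 : Inv 8 8 18 87112285931760246646623899502532662132736 13375071725720902358967599474654494569179530323298314615558123974714130742068902976168092064861376174504746690035453849019369386696579135354780363689820160 :=
  inv_mv (d := 17) 87112285931760246646623899502532662132736 120 _ (inv_or r21_e2
    (inv_or r21_e1
    r21_e0))
    (by decide +kernel)

theorem r21 : Inv 8 8 20 (2 ^ (16 * 8 + 8)) 13375071725720902358967599474654494569179530323298314615558123974714130742068902976168092064861376174504746690035453849019369386696579135354780363689820160 :=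
  inv_mono r21_n1986 (by decide) (by decide +kernel)

end Crest.Agent.Snaky
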