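import Crest.Agent.Snaky.Check
import Crest.Agent.Snaky.R22_0

set_option autoImplicit false
set_option maxRecDepth 100000

namespace Crest.Agent.Snaky

theorem r22 : Inv 8 8 20 (2 ^ (16 * 8 + 8)) 13407807929942596390156804930384191184018643528936222154720427314305769385247943313324690375733714862329538325878563136843377329683071424322759890567168000 :=
  inv_mono r22_e0 (by decide) (by decide +kernel)

end Crest.Agent.Snaky
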