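import Crest.Agent.Snaky.Check
import Crest.Agent.Snaky.RW_0

set_option autoImplicit false
set_option maxRecDepth 100000

namespace Crest.Agent.Snaky

theorem rw_n4291 : Inv 13 7 17 182690492302047976968470603987241284431150841856 13407795942044030620140461271608271366222347031076554147809896826192358558416331695197307781906046499184292460540896584685779062206115584613528298974085120 :=
  inv_mv (d := 16) 182690492302047976968470603987241284431150841856 139 _ (inv_or rw_e2
    (inv_or rw_e1
    rw_e0))
    (by decide +kernel)

theorem rw_n4380 : Inv 13 7 18 2787635685112193009999897705906974159273984 13407795942044018711614801026028975754692360849636709936350942933680212268717763735346312263337879869582292264920434327327388895501964793730526151641661440 :=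
  inv_mv (d := 17) 2787635685112193009999897705906974159273984 157 _ (inv_or rw_e3
    (inv_mono (d' := 17) (m' := 182690492302047976968470603987241284431150841856) rw_n4291 (by decide) (by decide +kernel)))
    (by decide +kernel)

theorem rw_n2332 : Inv 13 7 17 2787635685761230117316751159473286200426496 13407785552883152664348652189996602222628326843053164193753054169816815228991161415980086160043805090583089485199398106373975173501520748814344586394603520 :=
  inv_mv (d := 16) 2787635685761230117316751159473286200426496 123 _ (inv_or rw_e6
    (inv_or rw_e5
    rw_e4))
    (by decide +kernel)

theorem rw_n2423 : Inv 13 7 18 2787635685112193009999897705906974159273984 13407785552883152664348652189996602222628326767898654795681861844838650493764126741061303924454334411257320438556529080867154232338509803435979815669207040 :=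
  inv_mv (d := 17) 2787635685112193009999897705906974159273984 109 _ (inv_or rw_e7
    (inv_mono (d' := 17) (m' := 2787635685761230117316751159473286200426496) rw_n2332 (by decide) (by decide +kernel)))
    (by decide +kernel)

theorem rw_n4736 : Inv 13 7 19 42535295865117307932921825928971026432 13407783154581519479368203864305834197583693826531272652933989929521615758752343879900722515936088916694099360218186670103630883555170515547865825467699200 :=
  inv_mv (d := 18) 42535295865117307932921825928971026432 141 _ (inv_or rw_e8
    (inv_or (inv_mono (d' := 18) (m' := 2787635685112193009999897705906974159273984) rw_n2423 (by decide) (by decide +kernel))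
    (inv_mono (d' := 18) (m' := 2787635685112193009999897705906974159273984) rw_n4380 (by decide) (by decide +kernel))))
    (by decide +kernel)

theorem rw : Inv 13 7 20 (2 ^ (16 * 7 + 13)) 13407783154581519479368203864305834197583693826531272652933989929521615758752343879900722515936088916694099360218186670103630883555170515547865825467699200 :=
  inv_mono rw_n4736 (by decide) (by decide +kernel)

end Crest.Agent.Snaky
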