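import Crest.Agent.Snaky.Game

set_option autoImplicit false
open Crest.CombinatoricsR.PolyominoGame

namespace Crest.Agent.Snaky

/-- Cell number `c` of the 16-wide window with origin at column `ox`, row `oy`. -/
def cell (ox oy : ℤ) (c : ℕ) : ℤ × ℤ := (((c % 16 : ℕ) : ℤ) - ox, ((c / 16 : ℕ) : ℤ) - oy)

theorem cell_inj {ox oy : ℤ} {c c' : ℕ} (h : cell ox oy c = cell ox oy c') : c = c' := by
  simp only [cell, Prod.mk.injEq] at h
  omega

/-- The set of cells coded by a bit mask. -/
def S (ox oy : ℤ) (m : ℕ) : Set (ℤ × ℤ) := {p | ∃ c, m.testBit c = true ∧ p = cell ox oy c}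

def FULL : ℕ := 115792089237316195423570985008687907853269984665640564039457584007913129639935
def POISON : ℕ := 13407807929942597099574024998205846127479365820592393377723561443721764030073546976801874298166903427690031858186486050853753882811946569946433649006084096
def BASES : ℕ := 139237824833124787446592420208249623388591123229995035556358259779248047293839597019570256597046509892949157085788204111571323178379871766798680378214970096431845664523183638726303666798595

theorem FULL_eq : FULL = 2 ^ 256 - 1 := by decide +kernel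
theorem POISON_eq : POISON = 2 ^ 512 := by decide +kernel

def base (o : ℕ) : ℕ := Nat.land (Nat.shiftRight BASES (Nat.mul 80 o)) 1208925819614629174706175
def lim (o : ℕ) : ℕ := Nat.land (Nat.shiftRight 4008623035 (Nat.mul 4 o)) 15

theorem copy_base (ox oy : ℤ) (o t : ℕ) (ho : o < 8) (ht : t % 16 ≤ lim o) (X : Set (ℤ × ℤ))
    (h : ∀ c, (Nat.shiftLeft (base o) t).testBit c = true → cell ox oy c ∈ X) :
    ContainsCopy X := by
  have hk : ∀ kx ky : ℕ, (base o).testBit (16 * ky + kx) = true → t % 16 + kx ≤ 15 →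
      ∀ u v : ℤ, u = ((t % 16 : ℕ) : ℤ) - ox + kx → v = ((t / 16 : ℕ) : ℤ) - oy + ky →
      (u, v) ∈ X := by
    intro kx ky hb hl u v hu hv
    have h1 := h (t + (16 * ky + kx)) (by
      show ((base o) <<< t).testBit _ = true
      rw [Nat.testBit_shiftLeft]
      simp [hb])
    have e : cell ox oy (t + (16 * ky + kx)) = (u, v) := by
      simp only [cell, Prod.mk.injEq]
      omega
    rwa [e] at h1
  have fin : ∀ (dx dy e1 e2 : ℤ) (sw : Bool), (e1 = 1 ∨ e1 = -1) → (e2 = 1 ∨ e2 = -1) →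
      (∀ p ∈ snaky, ∃ kx ky : ℕ, (base o).testBit (16 * ky + kx) = true ∧ lim o + kx ≤ 15 ∧
        (kx : ℤ) = dx + e1 * (if sw then p.2 else p.1) ∧
        (ky : ℤ) = dy + e2 * (if sw then p.1 else p.2)) → ContainsCopy X := by
    intro dx dy e1 e2 sw h1 h2 hp
    refine ⟨(((t % 16 : ℕ) : ℤ) - ox + dx, ((t / 16 : ℕ) : ℤ) - oy + dy), e1, e2, h1, h2, ?_⟩
    cases sw
    · left
      intro p hp'
      obtain ⟨kx, ky, a1, a2, a3, a4⟩ := hp p hp'
      simp only [Bool.false_eq_true, if_false] at a3 a4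
      exact hk kx ky a1 (by omega) _ _ (by rw [a3]; ring) (by rw [a4]; ring)
    · right
      intro p hp'
      obtain ⟨kx, ky, a1, a2, a3, a4⟩ := hp p hp'
      simp only [if_true] at a3 a4
      exact hk kx ky a1 (by omega) _ _ (by rw [a3]; ring) (by rw [a4]; ring)
  have aux : ∀ (dx dy e1 e2 : ℤ) (sw : Bool),
      (∀ p ∈ snaky, (base o).testBit (16 * (dy + e2 * (if sw then p.1 else p.2)).toNat +
          (dx + e1 * (if sw then p.2 else p.1)).toNat) = true ∧
        lim o + (dx + e1 * (if sw then p.2 else p.1)).toNat ≤ 15 ∧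
        0 ≤ dx + e1 * (if sw then p.2 else p.1) ∧ 0 ≤ dy + e2 * (if sw then p.1 else p.2)) →
      (∀ p ∈ snaky, ∃ kx ky : ℕ, (base o).testBit (16 * ky + kx) = true ∧ lim o + kx ≤ 15 ∧
        (kx : ℤ) = dx + e1 * (if sw then p.2 else p.1) ∧
        (ky : ℤ) = dy + e2 * (if sw then p.1 else p.2)) := by
    intro dx dy e1 e2 sw hh p hp
    obtain ⟨a1, a2, a3, a4⟩ := hh p hp
    exact ⟨_, _, a1, a2, Int.toNat_of_nonneg a3, Int.toNat_of_nonneg a4⟩
  interval_cases o
  · exact fin 4 1 (-1) (-1) false (by simp) (by simp) (aux _ _ _ _ _ (by decide +kernel))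
  · exact fin 4 0 (-1) 1 false (by simp) (by simp) (aux _ _ _ _ _ (by decide +kernel))
  · exact fin 0 1 1 (-1) false (by simp) (by simp) (aux _ _ _ _ _ (by decide +kernel))
  · exact fin 0 0 1 1 false (by simp) (by simp) (aux _ _ _ _ _ (by decide +kernel))
  · exact fin 1 4 (-1) (-1) true (by simp) (by simp) (aux _ _ _ _ _ (by decide +kernel))
  · exact fin 1 0 (-1) 1 true (by simp) (by simp) (aux _ _ _ _ _ (by decide +kernel))
  · exact fin 0 4 1 (-1) true (by simp) (by simp) (aux _ _ _ _ _ (by decide +kernel))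
  · exact fin 0 0 1 1 true (by simp) (by simp) (aux _ _ _ _ _ (by decide +kernel))

/-- A result value: low 256 bits a zone, next 256 bits the covered replies, bit 512 failure. -/
def Inv (ox oy : ℤ) (d m r : ℕ) : Prop :=
  r.testBit 512 = false → ∀ y : ℤ × ℤ,
    (∀ c, c < 256 → y = cell ox oy c → r.testBit (256 + c) = true) →
      G d (S ox oy m) (insert y (S ox oy (Nat.land r FULL))ᶜ)

def pk (z : ℕ) : ℕ := Nat.lor z (Nat.shiftLeft (Nat.xor FULL z) 256)

theorem testBit_FULL (c : ℕ) : FULL.testBit c = decide (c < 256) := by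
  rw [FULL_eq, Nat.testBit_two_pow_sub_one]

theorem S_mono {ox oy : ℤ} {m m' : ℕ} (h : ∀ c, m.testBit c = true → m'.testBit c = true) :
    S ox oy m ⊆ S ox oy m' := by
  rintro p ⟨c, hc, rfl⟩
  exact ⟨c, h c hc, rfl⟩

theorem inv_poison (ox oy : ℤ) (d m : ℕ) : Inv ox oy d m POISON := by
  intro h
  rw [POISON_eq, Nat.testBit_two_pow_self] at h
  exact absurd h (by simp)

theorem inv_pk {ox oy : ℤ} {d m z : ℕ} (hz : ∀ c, z.testBit c = true → c < 256)
    (h : G d (S ox oy m) (S ox oy z)ᶜ) : Inv ox oy d m (pk z) := by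
  intro _ y hy
  refine G_mono h le_rfl subset_rfl ?_
  rintro p (rfl | hp)
  · rintro ⟨c, hc, rfl⟩
    have h1 := hy c (hz c hc) rfl
    have h2 : z.testBit (256 + c) = false := by
      by_contra hh
      have := hz (256 + c) (by simpa using hh)
      omega
    change (z ||| ((FULL ^^^ z) <<< 256)).testBit (256 + c) = true at h1
    rw [Nat.testBit_or, h2, Nat.testBit_shiftLeft] at h1
    simp [Nat.testBit_xor, testBit_FULL, hc, hz c hc] at h1
  · intro hq
    refine hp (S_mono ?_ hq)
    intro c hc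
    change ((z ||| ((FULL ^^^ z) <<< 256)) &&& FULL).testBit c = true
    simp [Nat.testBit_and, Nat.testBit_or, testBit_FULL, hc, hz c hc]

theorem inv_or {ox oy : ℤ} {d m a b : ℕ} (ha : Inv ox oy d m a) (hb : Inv ox oy d m b) :
    Inv ox oy d m (Nat.lor a b) := by
  intro h y hy
  change (a ||| b).testBit 512 = false at h
  rw [Nat.testBit_or, Bool.or_eq_false_iff] at h
  have key : ∀ e : ℕ, (∀ c, e.testBit c = true → (Nat.lor a b).testBit c = true) →
      G d (S ox oy m) (insert y (S ox oy (Nat.land e FULL))ᶜ) →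
      G d (S ox oy m) (insert y (S ox oy (Nat.land (Nat.lor a b) FULL))ᶜ) := by
    intro e he hG
    refine G_mono hG le_rfl subset_rfl (Set.insert_subset_insert (Set.compl_subset_compl.2
      (S_mono ?_)))
    intro c hc
    change (e &&& FULL).testBit c = true at hc
    change ((Nat.lor a b) &&& FULL).testBit c = true
    rw [Nat.testBit_and, Bool.and_eq_true] at hc ⊢
    exact ⟨he c hc.1, hc.2⟩
  have hl : ∀ c, a.testBit c = true → (Nat.lor a b).testBit c = true := by
    intro c hc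
    change (a ||| b).testBit c = true
    simp [Nat.testBit_or, hc]
  have hr : ∀ c, b.testBit c = true → (Nat.lor a b).testBit c = true := by
    intro c hc
    change (a ||| b).testBit c = true
    simp [Nat.testBit_or, hc]
  by_cases hca : ∀ c, c < 256 → y = cell ox oy c → a.testBit (256 + c) = true
  · exact key a hl (ha h.1 y hca)
  · refine key b hr (hb h.2 y ?_)
    push Not at hca
    obtain ⟨c0, h0, h1, h2⟩ := hca
    intro c hc hyc
    have e : c = c0 := cell_inj (hyc.symm.trans h1)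
    subst e
    have h3 := hy c hc hyc
    change (a ||| b).testBit (256 + c) = true at h3
    rw [Nat.testBit_or, Bool.or_eq_true] at h3
    exact h3.resolve_left h2

theorem inv_mono {ox oy : ℤ} {d d' m m' r : ℕ} (h : Inv ox oy d m r) (hd : Nat.ble d d' = true)
    (hm : Nat.beq (Nat.lor m m') m' = true) : Inv ox oy d' m' r := by
  intro h1 y hy
  refine G_mono (h h1 y hy) (Nat.le_of_ble_eq_true hd) (S_mono ?_) subset_rfl
  intro c hc
  rw [← Nat.eq_of_beq_eq_true hm]
  change (m ||| m').testBit c = true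
  simp [Nat.testBit_or, hc]

theorem insert_S (ox oy : ℤ) (m x : ℕ) :
    insert (cell ox oy x) (S ox oy m) = S ox oy (Nat.lor m (Nat.shiftLeft 1 x)) := by
  have e : ∀ c, (Nat.lor m (Nat.shiftLeft 1 x)).testBit c = (m.testBit c || decide (x = c)) := by
    intro c
    change (m ||| 1 <<< x).testBit c = _
    rw [Nat.testBit_or, Nat.one_shiftLeft, Nat.testBit_two_pow]
  ext p
  constructor
  · rintro (rfl | ⟨c, hc, rfl⟩)
    · exact ⟨x, by simp [e], rfl⟩
    · exact ⟨c, by simp [e, hc], rfl⟩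
  · rintro ⟨c, hc, rfl⟩
    rw [e, Bool.or_eq_true] at hc
    rcases hc with hc | hc
    · exact Or.inr ⟨c, hc, rfl⟩
    · left
      rw [of_decide_eq_true hc]

noncomputable def fin (r bx : ℕ) : ℕ :=
  Bool.rec POISON (pk (Nat.lor (Nat.land r FULL) bx)) (Nat.beq (Nat.shiftRight r 256) FULL)

theorem inv_fin {ox oy : ℤ} {d m x r : ℕ} (hx : x < 256)
    (h : Inv ox oy d (Nat.lor m (Nat.shiftLeft 1 x)) r) :
    Inv ox oy (d + 1) m (fin r (Nat.shiftLeft 1 x)) := by
  unfold fin
  cases hb : Nat.beq (Nat.shiftRight r 256) FULL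
  · exact inv_poison _ _ _ _
  · have hb' : r >>> 256 = FULL := Nat.eq_of_beq_eq_true hb
    have hbit : ∀ c, r.testBit (256 + c) = decide (c < 256) := by
      intro c
      rw [← Nat.testBit_shiftRight, hb', testBit_FULL]
    refine inv_pk ?_ ?_
    · intro c hc
      change ((r &&& FULL) ||| 1 <<< x).testBit c = true at hc
      rw [Nat.testBit_or, Nat.one_shiftLeft, Nat.testBit_two_pow, Nat.testBit_and,
        testBit_FULL] at hc
      simp only [Bool.or_eq_true, Bool.and_eq_true, decide_eq_true_eq] at hc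
      omega
    · rw [← insert_S]
      refine ⟨cell ox oy x, by simp, Or.inr fun y => ?_⟩
      rw [insert_S]
      have h1 := h (by simpa using hbit 256) y (fun c hc _ => by simp [hbit, hc])
      refine G_mono h1 le_rfl subset_rfl (Set.insert_subset_insert (Set.compl_subset_compl.2
        (Set.subset_insert _ _)))

noncomputable def leaf2 (mx bx o t : ℕ) : ℕ :=
  Bool.rec POISON
    (Bool.rec POISON (pk bx) (Nat.beq (Nat.lor (Nat.shiftLeft (base o) t) mx) mx))
    (Nat.ble (Nat.mod t 16) (lim o))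

noncomputable def leaf1 (m bx s : ℕ) : ℕ :=
  leaf2 (Nat.lor m bx) bx (Nat.land (Nat.shiftRight s 8) 7) (Nat.land (Nat.shiftRight s 11) 255)

noncomputable def leaf (m s : ℕ) : ℕ := leaf1 m (Nat.shiftLeft 1 (Nat.land s 255)) s

theorem land255 (s : ℕ) : Nat.land s 255 < 256 :=
  Nat.lt_succ_of_le (Nat.and_le_right (n := s) (m := 255))

theorem inv_leaf (ox oy : ℤ) (d m s : ℕ) : Inv ox oy (d + 1) m (leaf m s) := by
  unfold leaf leaf1 leaf2
  have hx := land255 s
  have ho : Nat.land (Nat.shiftRight s 8) 7 < 8 :=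
    Nat.lt_succ_of_le (Nat.and_le_right (n := Nat.shiftRight s 8) (m := 7))
  generalize Nat.land s 255 = x at *
  generalize Nat.land (Nat.shiftRight s 8) 7 = o at *
  generalize Nat.land (Nat.shiftRight s 11) 255 = t at *
  cases h1 : Nat.ble (Nat.mod t 16) (lim o)
  · exact inv_poison _ _ _ _
  cases h2 : Nat.beq (Nat.lor (Nat.shiftLeft (base o) t) (Nat.lor m (Nat.shiftLeft 1 x)))
    (Nat.lor m (Nat.shiftLeft 1 x))
  · exact inv_poison _ _ _ _
  have e : ∀ c, (Nat.shiftLeft 1 x).testBit c = decide (x = c) := by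
    intro c
    change (1 <<< x).testBit c = _
    rw [Nat.one_shiftLeft, Nat.testBit_two_pow]
  refine inv_pk ?_ ?_
  · intro c hc
    rw [e] at hc
    have := of_decide_eq_true hc
    omega
  · refine ⟨cell ox oy x, ?_, Or.inl ?_⟩
    · simp only [Set.mem_compl_iff, not_not]
      exact ⟨x, by simp [e], rfl⟩
    · rw [insert_S]
      refine copy_base ox oy o t ho (Nat.le_of_ble_eq_true h1) _ ?_
      intro c hc
      refine ⟨c, ?_, rfl⟩
      rw [← Nat.eq_of_beq_eq_true h2]
      change (Nat.shiftLeft (base o) t ||| _).testBit c = true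
      rw [Nat.testBit_or, hc, Bool.true_or]

noncomputable def mv1 (up : ℕ → ℕ → ℕ) (m s bx : ℕ) : ℕ :=
  fin (up (Nat.lor m bx) (Nat.shiftRight s 10)) bx

noncomputable def both1 (ih : ℕ → ℕ → ℕ) (m s' len : ℕ) : ℕ :=
  Nat.lor (ih m (Nat.mod s' (Nat.shiftLeft 1 len))) (ih m (Nat.shiftRight s' len))

noncomputable def step (up ih : ℕ → ℕ → ℕ) (m s : ℕ) : ℕ :=
  Bool.rec
    (Bool.rec
      (Nat.lor (leaf m (Nat.shiftRight s 2)) (ih m (Nat.shiftRight s 21)))
      (mv1 up m s (Nat.shiftLeft 1 (Nat.land (Nat.shiftRight s 2) 255)))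
      (Nat.beq (Nat.land s 2) 0))
    (Bool.rec
      (both1 ih m (Nat.shiftRight s 22) (Nat.land (Nat.shiftRight s 2) 1048575))
      (leaf m (Nat.shiftRight s 2))
      (Nat.beq (Nat.land s 2) 0))
    (Nat.beq (Nat.land s 1) 0)

noncomputable def inner (up : ℕ → ℕ → ℕ) (j : ℕ) : ℕ → ℕ → ℕ :=
  Nat.rec (motive := fun _ => ℕ → ℕ → ℕ) (fun _ _ => POISON) (fun _ ih m s => step up ih m s) j

noncomputable def ev (d : ℕ) : ℕ → ℕ → ℕ :=
  Nat.rec (motive := fun _ => ℕ → ℕ → ℕ) (fun _ _ => POISON) (fun _ up m s => inner up 100 m s) d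

theorem inv_step {ox oy : ℤ} {d : ℕ} {up ih : ℕ → ℕ → ℕ}
    (hup : ∀ m s, Inv ox oy d m (up m s)) (hih : ∀ m s, Inv ox oy (d + 1) m (ih m s))
    (m s : ℕ) : Inv ox oy (d + 1) m (step up ih m s) := by
  unfold step
  cases Nat.beq (Nat.land s 1) 0 <;> cases Nat.beq (Nat.land s 2) 0
  · exact inv_or (inv_leaf _ _ _ _ _) (hih _ _)
  · exact inv_fin (land255 _) (hup _ _)
  · exact inv_or (hih _ _) (hih _ _)
  · exact inv_leaf _ _ _ _ _

theorem inv_ev (ox oy : ℤ) (d : ℕ) : ∀ m s, Inv ox oy d m (ev d m s) := by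
  induction d with
  | zero => intro m s; exact inv_poison _ _ _ _
  | succ d ihd =>
    have : ∀ j m s, Inv ox oy (d + 1) m (inner (ev d) j m s) := by
      intro j
      induction j with
      | zero => intro m s; exact inv_poison _ _ _ _
      | succ j ihj => intro m s; exact inv_step ihd ihj m s
    intro m s
    exact this 100 m s

theorem inv_of (ox oy : ℤ) (d m s r : ℕ) (h : Nat.beq (ev d m s) r = true) : Inv ox oy d m r :=
  Nat.eq_of_beq_eq_true h ▸ inv_ev ox oy d m s

theorem inv_or' {ox oy : ℤ} {d m a b : ℕ} (r : ℕ) (ha : Inv ox oy d m a) (hb : Inv ox oy d m b)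
    (h : Nat.beq (Nat.lor a b) r = true) : Inv ox oy d m r :=
  Nat.eq_of_beq_eq_true h ▸ inv_or ha hb

theorem inv_mv {ox oy : ℤ} {d m' a : ℕ} (m x r : ℕ) (ha : Inv ox oy d m' a)
    (h : (Nat.ble x 255 && Nat.beq (Nat.lor m (Nat.shiftLeft 1 x)) m' &&
      Nat.beq (fin a (Nat.shiftLeft 1 x)) r) = true) : Inv ox oy (d + 1) m r := by
  simp only [Bool.and_eq_true] at h
  obtain ⟨⟨h1, h2⟩, h3⟩ := h
  rw [← Nat.eq_of_beq_eq_true h2] at ha
  exact Nat.eq_of_beq_eq_true h3 ▸ inv_fin (Nat.lt_succ_of_le (Nat.le_of_ble_eq_true h1)) ha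

/-- Use of a root pattern: the core is the origin only. -/
theorem root_use {ox oy : ℕ} {r : ℕ} (h : Inv ox oy 20 (2 ^ (16 * oy + ox)) r) (hox : ox < 16)
    (hp : r.testBit 512 = false) (y : ℤ × ℤ)
    (hy : ∀ c, c < 256 → y = cell ox oy c → r.testBit (256 + c) = true) :
    G 20 {(0, 0)} {y} := by
  refine G_mono (h hp y hy) le_rfl ?_ (by simp)
  rintro p ⟨c, hc, rfl⟩
  rw [Nat.testBit_two_pow] at hc
  have := of_decide_eq_true hc
  subst this
  simp only [cell, Set.mem_singleton_iff, Prod.mk.injEq]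
  omega

end Crest.Agent.Snaky
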