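import Mathlib
import Crest.Prelude.Def_PolyominoGame

set_option autoImplicit false
open Crest.CombinatoricsR.PolyominoGame

namespace Crest.Agent.Snaky

/-- `G d M B`: Maker, to move, owning `M` against `B`, completes a copy within `d` claims
(Breaker's replies are not even required to be legal). -/
def G : ℕ → Set (ℤ × ℤ) → Set (ℤ × ℤ) → Prop
  | 0, _, _ => False
  | d + 1, M, B => ∃ x, x ∉ B ∧
      (ContainsCopy (insert x M) ∨ ∀ y, G d (insert x M) (insert y B))

theorem copy_mono {X Y : Set (ℤ × ℤ)} (h : ContainsCopy X) (hXY : X ⊆ Y) : ContainsCopy Y := by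
  obtain ⟨t, e1, e2, h1, h2, h3⟩ := h
  refine ⟨t, e1, e2, h1, h2, ?_⟩
  rcases h3 with h3 | h3
  · exact Or.inl fun p hp => hXY (h3 p hp)
  · exact Or.inr fun p hp => hXY (h3 p hp)

theorem G_mono : ∀ {d d' : ℕ} {M M' B B' : Set (ℤ × ℤ)}, G d M B → d ≤ d' → M ⊆ M' → B' ⊆ B →
    G d' M' B'
  | 0, _, _, _, _, _, h, _, _, _ => h.elim
  | d + 1, 0, _, _, _, _, _, hd, _, _ => absurd hd (by omega)
  | d + 1, d' + 1, M, M', B, B', h, hd, hM, hB => by
    obtain ⟨x, hx, h⟩ := h
    refine ⟨x, fun hh => hx (hB hh), ?_⟩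
    rcases h with h | h
    · exact Or.inl (copy_mono h (Set.insert_subset_insert hM))
    · exact Or.inr fun y => G_mono (h y) (by omega) (Set.insert_subset_insert hM)
        (Set.insert_subset_insert hB)

theorem G_invol (f : ℤ × ℤ → ℤ × ℤ) (hf : ∀ p, f (f p) = p)
    (hc : ∀ X, ContainsCopy X → ContainsCopy (f ⁻¹' X)) :
    ∀ (d : ℕ) (M B : Set (ℤ × ℤ)), G d M B → G d (f ⁻¹' M) (f ⁻¹' B)
  | 0, _, _, h => h.elim
  | d + 1, M, B, h => by
    have key : ∀ (x : ℤ × ℤ) (X : Set (ℤ × ℤ)), insert (f x) (f ⁻¹' X) = f ⁻¹' (insert x X) := by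
      intro x X
      ext p
      simp only [Set.mem_insert_iff, Set.mem_preimage]
      constructor
      · rintro (rfl | h)
        · exact Or.inl (hf x)
        · exact Or.inr h
      · rintro (h | h)
        · exact Or.inl (by rw [← h, hf])
        · exact Or.inr h
    obtain ⟨x, hx, h⟩ := h
    refine ⟨f x, by simpa [hf] using hx, ?_⟩
    rcases h with h | h
    · left
      rw [key]
      exact hc _ h
    · right
      intro y
      have := G_invol f hf hc d _ _ (h (f y))
      rw [← key, ← key, hf] at this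
      exact this

theorem copy_swap (X : Set (ℤ × ℤ)) (h : ContainsCopy X) :
    ContainsCopy ((fun p : ℤ × ℤ => (p.2, p.1)) ⁻¹' X) := by
  obtain ⟨t, e1, e2, h1, h2, h3⟩ := h
  refine ⟨(t.2, t.1), e2, e1, h2, h1, ?_⟩
  rcases h3 with h3 | h3
  · exact Or.inr fun p hp => h3 p hp
  · exact Or.inl fun p hp => h3 p hp

theorem copy_neg (X : Set (ℤ × ℤ)) (h : ContainsCopy X) :
    ContainsCopy ((fun p : ℤ × ℤ => (-p.1, p.2)) ⁻¹' X) := by
  obtain ⟨t, e1, e2, h1, h2, h3⟩ := h
  refine ⟨(-t.1, t.2), -e1, e2, by omega, h2, ?_⟩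
  rcases h3 with h3 | h3
  · refine Or.inl fun p hp => ?_
    have := h3 p hp
    simp only [Set.mem_preimage]
    convert this using 2
    ring
  · refine Or.inr fun p hp => ?_
    have := h3 p hp
    simp only [Set.mem_preimage]
    convert this using 2
    ring

/-- From the canonical replies to all replies. -/
theorem G_root (h : ∀ a b : ℤ, 0 ≤ b → b ≤ a → G 20 {(0, 0)} {(a, b)}) : G 21 ∅ ∅ := by
  have hs : ∀ a b : ℤ, G 20 {(0, 0)} {(a, b)} → G 20 {(0, 0)} {(b, a)} := by
    intro a b hab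
    have := G_invol (fun p : ℤ × ℤ => (p.2, p.1)) (fun _ => rfl) copy_swap 20 _ _ hab
    refine G_mono this le_rfl ?_ ?_
    · rintro ⟨u, v⟩ hp
      simp only [Set.mem_preimage, Set.mem_singleton_iff, Prod.mk.injEq] at hp ⊢
      omega
    · rintro p rfl; rfl
  have hn : ∀ a b : ℤ, G 20 {(0, 0)} {(a, b)} → G 20 {(0, 0)} {(-a, b)} := by
    intro a b hab
    have := G_invol (fun p : ℤ × ℤ => (-p.1, p.2)) (fun p => by simp) copy_neg 20 _ _ hab
    refine G_mono this le_rfl ?_ ?_
    · rintro ⟨u, v⟩ hp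
      simp only [Set.mem_preimage, Set.mem_singleton_iff, Prod.mk.injEq] at hp ⊢
      omega
    · rintro p rfl; simp
  have h1 : ∀ a b : ℤ, 0 ≤ a → 0 ≤ b → G 20 {(0, 0)} {(a, b)} := by
    intro a b ha hb
    rcases le_total b a with hab | hab
    · exact h a b hb hab
    · exact hs _ _ (h b a ha hab)
  have h2 : ∀ a b : ℤ, 0 ≤ b → G 20 {(0, 0)} {(a, b)} := by
    intro a b hb
    rcases le_total 0 a with ha | ha
    · exact h1 a b ha hb
    · simpa using hn _ _ (h1 (-a) b (by omega) hb)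
  have h3 : ∀ a b : ℤ, G 20 {(0, 0)} {(a, b)} := by
    intro a b
    rcases le_total 0 b with hb | hb
    · exact h2 a b hb
    · have := hs _ _ (hn _ _ (hs _ _ (h2 a (-b) (by omega))))
      simpa using this
  refine ⟨(0, 0), by simp, Or.inr fun y => ?_⟩
  simpa using h3 y.1 y.2

/-- Won already, or winning. -/
def W (d : ℕ) (M B : Finset (ℤ × ℤ)) : Prop :=
  ContainsCopy (M : Set (ℤ × ℤ)) ∨ G d (M : Set (ℤ × ℤ)) (B : Set (ℤ × ℤ))

theorem W_step {d : ℕ} {M B : Finset (ℤ × ℤ)} (h : W (d + 1) M B) :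
    ∃ x, x ∉ M ∧ x ∉ B ∧ ∀ y, W d (insert x M) (insert y B) := by
  obtain ⟨x0, hx0⟩ := Infinite.exists_notMem_finset (M ∪ B)
  have hx0M : x0 ∉ M := fun hh => hx0 (Finset.mem_union_left _ hh)
  have hx0B : x0 ∉ B := fun hh => hx0 (Finset.mem_union_right _ hh)
  have hsub : (M : Set (ℤ × ℤ)) ⊆ ((insert x0 M : Finset (ℤ × ℤ)) : Set (ℤ × ℤ)) := by
    intro p hp
    simp only [Finset.coe_insert, Set.mem_insert_iff]
    exact Or.inr hp
  rcases h with h | ⟨x, hx, h⟩
  · exact ⟨x0, hx0M, hx0B, fun _ => Or.inl (copy_mono h hsub)⟩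
  · by_cases hxM : x ∈ M
    · have e : insert x (M : Set (ℤ × ℤ)) = M := Set.insert_eq_of_mem hxM
      rw [e] at h
      refine ⟨x0, hx0M, hx0B, fun y => ?_⟩
      rcases h with h | h
      · exact Or.inl (copy_mono h hsub)
      · exact Or.inr (G_mono (h y) le_rfl hsub (by simp))
    · refine ⟨x, hxM, hx, fun y => ?_⟩
      rcases h with h | h
      · exact Or.inl (by simpa using h)
      · exact Or.inr (by simpa using h y)

open Classical in
noncomputable def nxt (d : ℕ) (M B : Finset (ℤ × ℤ)) : ℤ × ℤ :=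
  if h : ∃ x, x ∉ M ∧ x ∉ B ∧ ∀ y, W d (insert x M) (insert y B) then h.choose else (0, 0)

theorem nxt_spec {d : ℕ} {M B : Finset (ℤ × ℤ)} (h : W (d + 1) M B) :
    nxt d M B ∉ M ∧ nxt d M B ∉ B ∧ ∀ y, W d (insert (nxt d M B) M) (insert y B) := by
  have h' := W_step h
  unfold nxt
  rw [dif_pos h']
  exact h'.choose_spec

/-- Maker's cells, given the reversed list of replies. -/
noncomputable def Ms : List (ℤ × ℤ) → Finset (ℤ × ℤ)
  | [] => ∅
  | _ :: l => insert (nxt (20 - l.length) (Ms l) l.toFinset) (Ms l)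

noncomputable def pol (l : List (ℤ × ℤ)) : ℤ × ℤ :=
  nxt (20 - l.length) (Ms l.reverse) l.reverse.toFinset

theorem final (h : G 21 ∅ ∅) (b : ℕ → ℤ × ℤ) :
    (∀ k : ℕ, k ≤ 20 →
        (∀ j : ℕ, j < k → makerClaim pol b k ≠ makerClaim pol b j) ∧
        (∀ j : ℕ, j < k → makerClaim pol b k ≠ b j)) ∧
      ContainsCopy {c | ∃ j : ℕ, j ≤ 20 ∧ c = makerClaim pol b j} := by
  let R : ℕ → List (ℤ × ℤ) := fun k => ((List.range k).map b).reverse
  have hR : ∀ k, R (k + 1) = b k :: R k := by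
    intro k
    simp [R, List.range_succ]
  have hlen : ∀ k, (R k).length = k := by intro k; simp [R]
  have hcl : ∀ k, makerClaim pol b k = nxt (20 - k) (Ms (R k)) (R k).toFinset := by
    intro k
    simp [makerClaim, pol, R]
  have hMs : ∀ k, Ms (R (k + 1)) = insert (makerClaim pol b k) (Ms (R k)) := by
    intro k
    rw [hR, hcl, Ms, hlen]
  have hmem : ∀ k c, c ∈ Ms (R k) ↔ ∃ j, j < k ∧ c = makerClaim pol b j := by
    intro k
    induction k with
    | zero => intro c; simp [R, Ms]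
    | succ k ih =>
      intro c
      rw [hMs, Finset.mem_insert, ih]
      constructor
      · rintro (rfl | ⟨j, hj, rfl⟩)
        · exact ⟨k, by omega, rfl⟩
        · exact ⟨j, by omega, rfl⟩
      · rintro ⟨j, hj, rfl⟩
        rcases Nat.lt_succ_iff_lt_or_eq.1 hj with hj | rfl
        · exact Or.inr ⟨j, hj, rfl⟩
        · exact Or.inl rfl
  have hW : ∀ k, k ≤ 21 → W (21 - k) (Ms (R k)) (R k).toFinset := by
    intro k
    induction k with
    | zero => intro _; right; simpa [R, Ms] using h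
    | succ k ih =>
      intro hk
      have h1 := ih (by omega)
      have e : 21 - k = (20 - k) + 1 := by omega
      rw [e] at h1
      have h2 := (nxt_spec h1).2.2 (b k)
      have e2 : 21 - (k + 1) = 20 - k := by omega
      rw [e2, hMs, hcl, hR, List.toFinset_cons]
      exact h2
  refine ⟨fun k hk => ?_, ?_⟩
  · have h1 := hW k (by omega)
    have e : 21 - k = (20 - k) + 1 := by omega
    rw [e] at h1
    obtain ⟨h2, h3, -⟩ := nxt_spec h1
    rw [← hcl] at h2 h3
    refine ⟨fun j hj hh => h2 ((hmem k _).2 ⟨j, hj, hh⟩), fun j hj hh => h3 ?_⟩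
    rw [hh]
    simp only [R, List.mem_toFinset, List.mem_reverse, List.mem_map, List.mem_range]
    exact ⟨j, hj, rfl⟩
  · rcases hW 21 le_rfl with h1 | h1
    · refine copy_mono h1 ?_
      intro c hc
      obtain ⟨j, hj, rfl⟩ := (hmem 21 c).1 hc
      exact ⟨j, by omega, rfl⟩
    · exact h1.elim

end Crest.Agent.Snaky
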